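import Vale.Agent.Lib.P200.GBC
import Vale.Agent.Lib.P200.GLPP1
import Vale.Agent.Lib.P200.GLPP2
import Vale.Agent.Lib.P200.GLPP4
import Vale.Agent.Lib.P200.GLPP7

/-!
# P200 (Eisenbud-Green-Harris): `S_1 J_a ⊆ J_{a+1}` at the initial degree, all degree sequences

Let `K` be a field and let `I` be an ideal of `K[x_1, ..., x_n]` containing a regular sequence of
forms of degrees `a` (`c ≥ 1` times), `a + 1` (`e ≥ 0` times) and `≥ a + 2` (`r ≥ 0` times).  With
`J_d` as in the problem file, if `q_a ≤ a - 2` and `q_a ≤ n - 1` then `x_j J_a ⊆ J_{a+1}`.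
-/

namespace Vale.Agent.Results.P200.AllDegreesLexStep

open Module MvPolynomial Vale.Agent.Lib.P200

theorem result {K : Type} [Field K] {n c e r a : ℕ} (hc : 1 ≤ c) (hcn : c + e + r ≤ n)
    (b : Fin n → ℕ)
    (hb1 : ∀ i : Fin n, i.val < c → b i = a)
    (hb2 : ∀ i : Fin n, c ≤ i.val → i.val < c + e → b i = a + 1)
    (hb3 : ∀ i : Fin n, c + e ≤ i.val → a + 2 ≤ b i)
    (f : Fin (c + e + r) → MvPolynomial (Fin n) K)
    (hf : ∀ i, (f i).IsHomogeneous (b (Fin.castLE hcn i)))
    (hreg : ∀ (i : Fin (c + e + r)) (h : MvPolynomial (Fin n) K),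
      h * f i ∈ Ideal.span (f '' {j | j < i}) → h ∈ Ideal.span (f '' {j | j < i}))
    (I : Ideal (MvPolynomial (Fin n) K)) (hfI : ∀ i, f i ∈ I)
    (hq1 : qd2 I (c + e + r) b a + 2 ≤ a) (hq2 : qd2 I (c + e + r) b a + 1 ≤ n) :
    ∀ (j : Fin n) (p : MvPolynomial (Fin n) K),
      p ∈ Jd2 I (c + e + r) b a → X j * p ∈ Jd2 I (c + e + r) b (a + 1) := by
  obtain ⟨N, rfl⟩ : ∃ N, n = N + 1 := ⟨n - 1, by omega⟩
  have ha : 2 ≤ a := by omega
  have hC : 1 ≤ c + e + r := by omega
  have hb0 : b 0 = a := hb1 0 (by rw [Fin.val_zero]; omega)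
  have hb : ∀ i, a ≤ b i := by
    intro i
    rcases Nat.lt_or_ge i.val c with h | h
    · rw [hb1 i h]
    · rcases Nat.lt_or_ge i.val (c + e) with h' | h'
      · rw [hb2 i h h']
        omega
      · have := hb3 i h'
        omega
  have hPa : finrank K (part (PowIdeal2 K (N + 1) (c + e + r) b) a) = c := by
    rw [finrank_part_PowIdeal2, ncard_inP2 _ c e _ a b hb1 hb2 hb3 (by omega) hcn (by omega)]
  have hPa1 : finrank K (part (PowIdeal2 K (N + 1) (c + e + r) b) (a + 1)) ≤ (N + 1) * c + e := by
    rw [finrank_part_PowIdeal2]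
    exact ncard_inP_succ2 _ c e _ a b hb1 hb2 hb3 (by omega) hcn
  have hd1 : ∀ i : Fin c, b (Fin.castLE hcn (Fin.castAdd r (Fin.castAdd e i))) = a := by
    intro i
    exact hb1 _ (by simp)
  have hd2 : ∀ t : Fin e, b (Fin.castLE hcn (Fin.castAdd r (Fin.natAdd c t))) = a + 1 := by
    intro t
    exact hb2 _ (by simp) (by simp)
  have hle : c ≤ finrank K (part I a) :=
    le_finrank_part2 f (fun i => b (Fin.castLE hcn i)) hf hd1 (fun i => hb _) hreg (by omega) I hfI
  have hqdef : qd2 I (c + e + r) b a = finrank K (part I a) - c := by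
    unfold qd2
    rw [hPa]
  have hIa : finrank K (part I a) = c + qd2 I (c + e + r) b a := by omega
  have hgrow := growth_mixed f (fun i => b (Fin.castLE hcn i)) hf hd1 hd2 (fun i => hb _) hreg I
    hfI hIa hq1
  have hq' : ∀ t, t + 1 + (qd2 I (c + e + r) b a + 1).choose 2
      ≤ (N + 1) * qd2 I (c + e + r) b a → t < qd2 I (c + e + r) b (a + 1) := by
    intro t ht
    rw [Nat.mul_add] at hgrow
    have e1 : qd2 I (c + e + r) b (a + 1) = finrank K (part I (a + 1))
        - finrank K (part (PowIdeal2 K (N + 1) (c + e + r) b) (a + 1)) := rfl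
    omega
  intro j p hp
  unfold Jd2 at hp
  rw [Submodule.mem_sup] at hp
  obtain ⟨p1, hp1, p2, hp2, rfl⟩ := hp
  rw [mul_add]
  refine Submodule.add_mem _ ?_ ?_
  · exact Submodule.mem_sup_left (X_mul_mem_part _ a p1 hp1 j)
  · induction hp2 using Submodule.span_induction with
    | mem x hx =>
      obtain ⟨m, hm, hcard, rfl⟩ := hx
      obtain ⟨k, hk1, hkq, rfl⟩ := top_monomials2 N _ a _ b hC ha (by omega) hb0 hb m hm hcard
      have hk0 : k ≠ 0 := by
        intro h
        rw [h] at hk1
        simp at hk1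
      by_cases hj : j = 0
      · subst hj
        refine Submodule.mem_sup_left ⟨?_, ?_⟩
        · have e0 : (X 0 * monomial (Finsupp.single 0 (a - 1) + Finsupp.single k 1) 1 :
              MvPolynomial (Fin (N + 1)) K) = X k * X 0 ^ a := by
            have e1 : (Finsupp.single 0 a : Fin (N + 1) →₀ ℕ)
                = Finsupp.single 0 1 + Finsupp.single 0 (a - 1) := by
              rw [← Finsupp.single_add]
              congr 1
              omega
            rw [X_pow_eq_monomial, X, X, monomial_mul, monomial_mul, e1, ← add_assoc,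
              add_comm (Finsupp.single k 1)]
          rw [e0]
          exact Ideal.mul_mem_left _ _ (Ideal.subset_span
            ⟨0, by rw [Fin.val_zero]; omega, by rw [hb0]⟩)
        · have h4 : (X 0 * monomial (Finsupp.single 0 (a - 1) + Finsupp.single k 1) 1 :
              MvPolynomial (Fin (N + 1)) K).IsHomogeneous (1 + a) :=
            (isHomogeneous_X K 0).mul (isHomogeneous_monomial 1 hm.1)
          rw [add_comm 1 a] at h4
          exact h4
      · have hj1 : 1 ≤ j.val := by
          rcases Nat.eq_zero_or_pos j.val with h | h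
          · exact absurd (Fin.ext h) hj
          · exact h
        refine Submodule.mem_sup_right (Submodule.subset_span
          ⟨Finsupp.single 0 (a - 1) + Finsupp.single k 1 + Finsupp.single j 1, ⟨?_, ?_⟩, ?_, ?_⟩)
        · rw [map_add, hm.1]
          simp
        · intro i _
          by_cases hi : i = 0
          · subst hi
            rw [hb0]
            simp [hk0, hj]
            omega
          · have h1 : (Finsupp.single (0 : Fin (N + 1)) (a - 1)) i = 0 := by
              simp [Ne.symm hi]
            have h2 : (Finsupp.single k 1 : Fin (N + 1) →₀ ℕ) i ≤ 1 := by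
              rw [Finsupp.single_apply]
              split_ifs <;> omega
            have h3 : (Finsupp.single j 1 : Fin (N + 1) →₀ ℕ) i ≤ 1 := by
              rw [Finsupp.single_apply]
              split_ifs <;> omega
            have h5 := hb i
            rw [Finsupp.add_apply, Finsupp.add_apply, h1]
            omega
        · exact hq' _ (above_count2 N _ a _ b hC (by omega) (by omega) hb0 k j hk1 hkq hj1)
        · rw [X, monomial_mul, one_mul, add_comm (Finsupp.single j 1)]
    | zero => simp
    | add x y _ _ hx hy =>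
      rw [mul_add]
      exact Submodule.add_mem _ hx hy
    | smul r x _ hx =>
      rw [mul_smul_comm]
      exact Submodule.smul_mem _ _ hx

end Vale.Agent.Results.P200.AllDegreesLexStep
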