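import Vale.Agent.Lib.P200.BC5

/-!
# P200 (Eisenbud-Green-Harris): the first growth step for equal degrees, over any field

Let `K` be a field and let `I` be an ideal of `K[x_1, ..., x_n]` containing a regular
sequence `f_1, ..., f_c` of forms of the same degree `a`.  If `dim I_a = c + q` with `q + 2 ≤ a`
then `dim I_{a+1} ≥ n (c + q) - (q + 1 choose 2)`.
-/

namespace Vale.Agent.Results.P200.AnyFieldGrowthStep

open Module MvPolynomial Vale.Agent.Lib.P200

theorem result {K : Type} [Field K] {n c a q : ℕ}
    (f : Fin c → MvPolynomial (Fin n) K)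
    (hf : ∀ i, (f i).IsHomogeneous a)
    (hreg : ∀ (i : Fin c) (h : MvPolynomial (Fin n) K),
      h * f i ∈ Ideal.span (f '' {j | j < i}) → h ∈ Ideal.span (f '' {j | j < i}))
    (I : Ideal (MvPolynomial (Fin n) K)) (hfI : ∀ i, f i ∈ I)
    (hq : finrank K ↥(I.restrictScalars K ⊓ homogeneousSubmodule (Fin n) K a) = c + q)
    (hqa : q + 2 ≤ a) :
    n * (c + q) ≤
      finrank K ↥(I.restrictScalars K ⊓ homogeneousSubmodule (Fin n) K (a + 1))
        + (q + 1).choose 2 :=
  first_growth_step_any f hf hreg I hfI hq hqa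

end Vale.Agent.Results.P200.AnyFieldGrowthStep
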