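import Vale.Agent.Lib.P200.Main
import Vale.Agent.Lib.P200.Final

/-!
# P200 (Eisenbud-Green-Harris): the first growth step for equal degrees

Let `K` be an infinite field and let `I` be an ideal of `K[x_1, ..., x_n]` containing a regular
sequence `f_1, ..., f_c` of forms of the same degree `a`.  If `dim I_a = c + q` with `q + 2 ≤ a`
then `dim I_{a+1} ≥ n (c + q) - (q + 1 choose 2)`.
-/

namespace Vale.Agent.Results.P200.FirstGrowthStep

open Module MvPolynomial Vale.Agent.Lib.P200

theorem result {K : Type} [Field K] [Infinite K] {n c a q : ℕ}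
    (f : Fin c → MvPolynomial (Fin n) K)
    (hf : ∀ i, (f i).IsHomogeneous a)
    (hreg : ∀ (i : Fin c) (h : MvPolynomial (Fin n) K),
      h * f i ∈ Ideal.span (f '' {j | j < i}) → h ∈ Ideal.span (f '' {j | j < i}))
    (I : Ideal (MvPolynomial (Fin n) K)) (hfI : ∀ i, f i ∈ I)
    (hq : finrank K ↥(I.restrictScalars K ⊓ homogeneousSubmodule (Fin n) K a) = c + q)
    (hqa : q + 2 ≤ a) :
    n * (c + q) ≤
      finrank K ↥(I.restrictScalars K ⊓ homogeneousSubmodule (Fin n) K (a + 1))
        + (q + 1).choose 2 := by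
  have hfa : FiniteDimensional K (homogeneousSubmodule (Fin n) K a) := finite_homog a
  have hfa1 : FiniteDimensional K (homogeneousSubmodule (Fin n) K (a + 1)) := finite_homog (a + 1)
  have hV : FiniteDimensional K ↥(I.restrictScalars K ⊓ homogeneousSubmodule (Fin n) K a) :=
    Submodule.finiteDimensional_of_le inf_le_right
  have hU : FiniteDimensional K ↥(I.restrictScalars K ⊓ homogeneousSubmodule (Fin n) K (a + 1)) :=
    Submodule.finiteDimensional_of_le inf_le_right
  have hFV : Submodule.span K (Set.range f)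
      ≤ I.restrictScalars K ⊓ homogeneousSubmodule (Fin n) K a := by
    rw [Submodule.span_le]
    rintro _ ⟨i, rfl⟩
    exact ⟨hfI i, hf i⟩
  have hreg' : IsRegSeq f := hreg
  have h1 := finrank_map_mkQ f hf hreg' (by omega) _ hFV hq
  have h2 := finrank_Syz_le_of_reg f hf hreg' q _ hFV h1 hqa
  have h3 := growth (I.restrictScalars K ⊓ homogeneousSubmodule (Fin n) K a)
    (I.restrictScalars K ⊓ homogeneousSubmodule (Fin n) K (a + 1)) (by
      intro v hv j
      refine ⟨I.mul_mem_left _ hv.1, ?_⟩
      have h4 : (X j * v : MvPolynomial (Fin n) K).IsHomogeneous (1 + a) :=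
        (isHomogeneous_X K j).mul hv.2
      rw [add_comm] at h4
      exact h4)
  rw [hq] at h3
  exact le_trans h3 (Nat.add_le_add_left h2 _)

end Vale.Agent.Results.P200.FirstGrowthStep
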