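import Vale.Agent.Lib.P200.Growth
import Vale.Agent.Lib.P200.LPP1
import Vale.Agent.Lib.P200.LPP2
import Vale.Agent.Lib.P200.LPP4
import Vale.Agent.Lib.P200.LPP7

/-!
# P200 (Eisenbud-Green-Harris): `S_1 J_a ⊆ J_{a+1}` for equal degrees

Let `K` be an infinite field and let `I` be an ideal of `K[x_1, ..., x_n]` containing a regular
sequence `f_1, ..., f_c` of forms of the same degree `a`.  With `J_d` as in the problem file, if
`q_a ≤ a - 2` and `q_a ≤ n - 1` then `x_j J_a ⊆ J_{a+1}` for all `j`.
-/

namespace Vale.Agent.Results.P200.LexPlusPowersStep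

open Module MvPolynomial Vale.Agent.Lib.P200

theorem result {K : Type} [Field K] [Infinite K] {n c a : ℕ} (hc : 1 ≤ c) (hcn : c ≤ n)
    (f : Fin c → MvPolynomial (Fin n) K)
    (hf : ∀ i, (f i).IsHomogeneous a)
    (hreg : ∀ (i : Fin c) (h : MvPolynomial (Fin n) K),
      h * f i ∈ Ideal.span (f '' {j | j < i}) → h ∈ Ideal.span (f '' {j | j < i}))
    (I : Ideal (MvPolynomial (Fin n) K)) (hfI : ∀ i, f i ∈ I)
    (hq1 : qd I c a a + 2 ≤ a) (hq2 : qd I c a a + 1 ≤ n) :
    ∀ (j : Fin n) (p : MvPolynomial (Fin n) K), p ∈ Jd I c a a → X j * p ∈ Jd I c a (a + 1) := by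
  obtain ⟨N, rfl⟩ : ∃ N, n = N + 1 := ⟨n - 1, by omega⟩
  have ha : 2 ≤ a := by omega
  have hPa : finrank K (part (PowIdeal K (N + 1) c a) a) = c := by
    rw [finrank_part_PowIdeal, ncard_inP _ _ _ hcn (by omega)]
  have hPa1 : finrank K (part (PowIdeal K (N + 1) c a) (a + 1)) ≤ (N + 1) * c := by
    rw [finrank_part_PowIdeal]
    exact ncard_inP_succ _ _ _ hcn
  have hle : c ≤ finrank K (part I a) := le_finrank_part f hf hreg (by omega) I hfI
  have hqdef : qd I c a a = finrank K (part I a) - c := by
    unfold qd
    rw [hPa]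
  have hIa : finrank K (part I a) = c + qd I c a a := by omega
  have hgrow := first_growth_step f hf hreg I hfI hIa hq1
  have hq' : ∀ t, t + 1 + (qd I c a a + 1).choose 2 ≤ (N + 1) * qd I c a a →
      t < qd I c a (a + 1) := by
    intro t ht
    rw [Nat.mul_add] at hgrow
    have e : qd I c a (a + 1)
        = finrank K (part I (a + 1)) - finrank K (part (PowIdeal K (N + 1) c a) (a + 1)) := rfl
    omega
  intro j p hp
  unfold Jd at hp
  rw [Submodule.mem_sup] at hp
  obtain ⟨p1, hp1, p2, hp2, rfl⟩ := hp
  rw [mul_add]
  refine Submodule.add_mem _ ?_ ?_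
  · exact Submodule.mem_sup_left (X_mul_mem_part _ a p1 hp1 j)
  · induction hp2 using Submodule.span_induction with
    | mem x hx =>
      obtain ⟨m, hm, hcard, rfl⟩ := hx
      obtain ⟨k, hk1, hkq, rfl⟩ := top_monomials N c a _ hc ha (by omega) m hm hcard
      have hk0 : k ≠ 0 := by
        intro h
        rw [h] at hk1
        simp at hk1
      by_cases hj : j = 0
      · subst hj
        refine Submodule.mem_sup_left ⟨?_, ?_⟩
        · have e : (X 0 * monomial (Finsupp.single 0 (a - 1) + Finsupp.single k 1) 1 :
              MvPolynomial (Fin (N + 1)) K) = X k * X 0 ^ a := by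
            have e1 : (Finsupp.single 0 a : Fin (N + 1) →₀ ℕ)
                = Finsupp.single 0 1 + Finsupp.single 0 (a - 1) := by
              rw [← Finsupp.single_add]
              congr 1
              omega
            rw [X_pow_eq_monomial, X, X, monomial_mul, monomial_mul, e1, ← add_assoc,
              add_comm (Finsupp.single k 1)]
          rw [e]
          exact Ideal.mul_mem_left _ _ (Ideal.subset_span ⟨0, by rw [Fin.val_zero]; omega, rfl⟩)
        · have h4 : (X 0 * monomial (Finsupp.single 0 (a - 1) + Finsupp.single k 1) 1 :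
              MvPolynomial (Fin (N + 1)) K).IsHomogeneous (1 + a) :=
            (isHomogeneous_X K 0).mul (isHomogeneous_monomial 1 hm.1)
          rw [add_comm 1 a] at h4
          exact h4
      · have hj1 : 1 ≤ j.val := by
          rcases Nat.eq_zero_or_pos j.val with h | h
          · exact absurd (Fin.ext h) hj
          · exact h
        refine Submodule.mem_sup_right (Submodule.subset_span
          ⟨Finsupp.single 0 (a - 1) + Finsupp.single k 1 + Finsupp.single j 1, ⟨?_, ?_⟩, ?_, ?_⟩)
        · rw [map_add, hm.1]
          simp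
        · intro i _
          by_cases hi : i = 0
          · subst hi
            simp [hk0, hj]
            omega
          · have h1 : (Finsupp.single (0 : Fin (N + 1)) (a - 1)) i = 0 := by
              simp [Ne.symm hi]
            have h2 : (Finsupp.single k 1 : Fin (N + 1) →₀ ℕ) i ≤ 1 := by
              rw [Finsupp.single_apply]
              split_ifs <;> omega
            have h3 : (Finsupp.single j 1 : Fin (N + 1) →₀ ℕ) i ≤ 1 := by
              rw [Finsupp.single_apply]
              split_ifs <;> omega
            rw [Finsupp.add_apply, Finsupp.add_apply, h1]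
            omega
        · exact hq' _ (above_count N c a _ hc (by omega) (by omega) k j hk1 hkq hj1)
        · rw [X, monomial_mul, one_mul, add_comm (Finsupp.single j 1)]
    | zero => simp
    | add x y _ _ hx hy =>
      rw [mul_add]
      exact Submodule.add_mem _ hx hy
    | smul r x _ hx =>
      rw [mul_smul_comm]
      exact Submodule.smul_mem _ _ hx

end Vale.Agent.Results.P200.LexPlusPowersStep
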